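import Mathlib

/-!
# LEAF G: a monotonicity chart at a point with positive directional derivative
`z ↦ fderiv ℝ q z w` is continuous (`hq.continuous_fderiv (by norm_num)` then `.clm_apply`), so it
is `≥ m := fderiv ℝ q p w / 2` on a ball `ball p r`, `r ≤ r'`.  Monotonicity: for `z` and
`z + t • w` in the (convex) ball, `φ s = q (z + s • w)` has derivative
`fderiv ℝ q (z + s • w) w ≥ m` on `[0, t]`; mean value inequality
(`Convex.mul_sub_le_image_sub_of_le_deriv` on `Set.Icc 0 t`).
-/

namespace Vale.Agent.Lib.P274.SA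

open Metric

theorem chart_of_deriv_pos {q : ℂ → ℝ} (hq : ContDiff ℝ 2 q) {p w : ℂ}
    (h : 0 < fderiv ℝ q p w) {r' : ℝ} (hr' : 0 < r') :
    ∃ r m : ℝ, 0 < r ∧ r ≤ r' ∧ 0 < m ∧ (∀ z ∈ ball p r, m ≤ fderiv ℝ q z w) ∧
      (∀ (z : ℂ) (t : ℝ), 0 ≤ t → z ∈ ball p r → z + t • w ∈ ball p r →
        q z + m * t ≤ q (z + t • w)) := by
  have hcont : Continuous fun z => fderiv ℝ q z w :=
    (hq.continuous_fderiv (by norm_num)).clm_apply continuous_const
  set m : ℝ := fderiv ℝ q p w / 2 with hm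
  have hm0 : 0 < m := by positivity
  have hopen : IsOpen {z : ℂ | m < fderiv ℝ q z w} := isOpen_lt continuous_const hcont
  have hp : p ∈ {z : ℂ | m < fderiv ℝ q z w} := by
    show m < fderiv ℝ q p w
    rw [hm]
    linarith
  obtain ⟨ε, hε, hball⟩ := Metric.isOpen_iff.1 hopen p hp
  have hr0 : 0 < min ε r' := lt_min hε hr'
  have hge : ∀ z ∈ ball p (min ε r'), m ≤ fderiv ℝ q z w := by
    intro z hz
    have hz' : z ∈ ball p ε := ball_subset_ball (min_le_left _ _) hz
    exact le_of_lt (hball hz')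
  refine ⟨min ε r', m, hr0, min_le_right _ _, hm0, hge, ?_⟩
  intro z t ht hz hzt
  rcases ht.eq_or_lt with rfl | htpos
  · simp
  have hdiff : Differentiable ℝ q := hq.differentiable (by norm_num)
  have hmem : ∀ s ∈ Set.Icc (0 : ℝ) t, z + s • w ∈ ball p (min ε r') := by
    intro s hs
    have h1 : s / t ∈ Set.Icc (0 : ℝ) 1 :=
      ⟨div_nonneg hs.1 htpos.le, (div_le_one htpos).2 hs.2⟩
    have h2 := (convex_ball p (min ε r')).add_smul_mem hz hzt h1
    have h3 : (s / t) • t • w = s • w := by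
      rw [smul_smul, div_mul_cancel₀ s htpos.ne']
    rwa [h3] at h2
  have hder : ∀ s : ℝ, HasDerivAt (fun s : ℝ => q (z + s • w)) (fderiv ℝ q (z + s • w) w) s := by
    intro s
    have h1 : HasDerivAt (fun s : ℝ => z + s • w) w s := by
      have h2 : HasDerivAt (fun s : ℝ => s • w) ((1 : ℝ) • w) s := (hasDerivAt_id s).smul_const w
      rw [one_smul] at h2
      exact h2.const_add z
    exact (hdiff (z + s • w)).hasFDerivAt.comp_hasDerivAt s h1
  have hmv := Convex.mul_sub_le_image_sub_of_le_deriv (convex_Icc (0 : ℝ) t)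
    (f := fun s : ℝ => q (z + s • w)) (C := m)
    (fun s _ => (hder s).continuousAt.continuousWithinAt)
    (fun s _ => (hder s).differentiableAt.differentiableWithinAt)
    (fun s hs => by
      rw [(hder s).deriv]
      exact hge _ (hmem s (interior_subset hs)))
    0 (Set.left_mem_Icc.2 htpos.le) t (Set.right_mem_Icc.2 htpos.le) htpos.le
  simp only [zero_smul, add_zero, sub_zero] at hmv
  linarith

end Vale.Agent.Lib.P274.SA
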