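import Mathlib

/-!
# P274, planar semialgebraic case: definitions used in the statement
-/

namespace Vale.Agent.Lib.P274.SA

/-- The value at the point `z = x + i y` of a real polynomial in the two real coordinates
`x = re z` (variable `0`) and `y = im z` (variable `1`). -/
noncomputable def ev (P : MvPolynomial (Fin 2) ℝ) (z : ℂ) : ℝ :=
  MvPolynomial.eval ![z.re, z.im] P

/-- Semialgebraic subsets of the complex plane: the finite Boolean combinations of sets given by
real polynomial inequalities and equalities in the real and imaginary parts. -/
inductive Semialg : Set ℂ → Prop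
  | pos (P : MvPolynomial (Fin 2) ℝ) : Semialg {z | 0 < ev P z}
  | zero (P : MvPolynomial (Fin 2) ℝ) : Semialg {z | ev P z = 0}
  | union {S T : Set ℂ} : Semialg S → Semialg T → Semialg (S ∪ T)
  | inter {S T : Set ℂ} : Semialg S → Semialg T → Semialg (S ∩ T)
  | compl {S : Set ℂ} : Semialg S → Semialg Sᶜ

end Vale.Agent.Lib.P274.SA
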