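import Mathlib

/-!
# LEAF K: the two sides of `{q = 0}` near `p` do not mix with respect to a set `T`
`mem_iff_of_segment`: the segment is preconnected (`(convex_segment x y).isPreconnected`); a
preconnected set meeting `T` and `Tᶜ` meets `frontier T` (`IsPreconnected.inter_frontier_nonempty`
or directly from `frontier`/`isPreconnected_iff...`).
`side`: choose `r₁ ≤ r / 2` with `|q y| < m * (r / 2)` on `ball p r₁` (continuity, `q p = 0`).
For `z ∈ ball p r₁`, `0 < q z`: on the segment `[z, z + (r/2) • w]` one has `q ≥ q z > 0` (`hmono`),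
on the segment `[z + (r/2) • w, p + (r/2) • w]` the points are `y + (r/2) • w`, `y ∈ [z, p] ⊆ ball p r₁`,
and `q (y + (r/2) • w) ≥ q y + m (r/2) > 0`; all these points are in `ball p r`, so they are not in
`frontier T`; apply `mem_iff_of_segment` twice.  The side `q z < 0` is symmetric with `- (r/2) • w`
(`hmono` applied at `u - t • w`).
-/

namespace Vale.Agent.Lib.P274.SA

open Metric

theorem mem_iff_of_segment {T : Set ℂ} {x y : ℂ} (h : ∀ u ∈ segment ℝ x y, u ∉ frontier T) :
    x ∈ T ↔ y ∈ T := by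
  have hpre : IsPreconnected (segment ℝ x y) := (convex_segment x y).isPreconnected
  have hsub : segment ℝ x y ⊆ interior T ∪ (closure T)ᶜ := by
    intro u hu
    by_cases hc : u ∈ closure T
    · left
      by_contra hi
      exact h u hu ⟨hc, hi⟩
    · right
      exact hc
  have hdisj : Disjoint (interior T) (closure T)ᶜ := by
    rw [Set.disjoint_left]
    intro u hu hc
    exact hc (subset_closure (interior_subset hu))
  have hx : x ∈ segment ℝ x y := left_mem_segment ℝ x y
  have hy : y ∈ segment ℝ x y := right_mem_segment ℝ x y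
  rcases hpre.subset_or_subset isOpen_interior isClosed_closure.isOpen_compl hdisj hsub with h1 | h1
  · exact ⟨fun _ => interior_subset (h1 hy), fun _ => interior_subset (h1 hx)⟩
  · exact ⟨fun hxT => absurd (subset_closure hxT) (h1 hx),
      fun hyT => absurd (subset_closure hyT) (h1 hy)⟩

theorem side_pos {q : ℂ → ℝ} {w p : ℂ} {r m : ℝ} (hw : ‖w‖ = 1) (hm : 0 < m) (hr : 0 < r)
    (hqc : Continuous q)
    (hmono : ∀ (z : ℂ) (t : ℝ), 0 ≤ t → z ∈ ball p r → z + t • w ∈ ball p r →
      q z + m * t ≤ q (z + t • w))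
    (hqp : q p = 0) {T : Set ℂ} (hT : ∀ z ∈ frontier T, z ∈ ball p r → q z = 0) :
    ∃ r₁ > 0, r₁ ≤ r ∧
      (∀ z ∈ ball p r₁, 0 < q z → (z ∈ T ↔ p + (r / 2) • w ∈ T)) := by
  have hmr : 0 < m * (r / 2) := by positivity
  obtain ⟨δ, hδ, hδq⟩ := Metric.continuous_iff.1 hqc p (m * (r / 2)) hmr
  refine ⟨min δ (r / 2), lt_min hδ (by positivity), (min_le_right _ _).trans (by linarith), ?_⟩
  intro z hz hqz
  have hz1 : dist z p < δ := lt_of_lt_of_le (mem_ball.1 hz) (min_le_left _ _)
  have hz2 : dist z p < r / 2 := lt_of_lt_of_le (mem_ball.1 hz) (min_le_right _ _)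
  have hnorm : ∀ t : ℝ, 0 ≤ t → ‖t • w‖ = t := by
    intro t ht
    rw [norm_smul, hw, mul_one, Real.norm_of_nonneg ht]
  have hball : ∀ (y : ℂ) (t : ℝ), dist y p < r / 2 → 0 ≤ t → t ≤ r / 2 →
      y + t • w ∈ ball p r := by
    intro y t hy ht0 ht
    rw [mem_ball, dist_eq_norm]
    have e : y + t • w - p = (y - p) + t • w := by module
    rw [e]
    calc ‖(y - p) + t • w‖ ≤ ‖y - p‖ + ‖t • w‖ := norm_add_le _ _
      _ < r := by
        rw [hnorm t ht0, ← dist_eq_norm]
        linarith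
  have hball0 : ∀ y : ℂ, dist y p < r / 2 → y ∈ ball p r := by
    intro y hy
    rw [mem_ball]
    linarith
  have h1 : z ∈ T ↔ z + (r / 2) • w ∈ T := by
    apply mem_iff_of_segment
    intro u hu hfr
    rw [segment_eq_image'] at hu
    obtain ⟨θ, ⟨hθ0, hθ1⟩, rfl⟩ := hu
    have e : z + θ • (z + (r / 2) • w - z) = z + (θ * (r / 2)) • w := by
      rw [add_sub_cancel_left, smul_smul]
    simp only [e] at hfr
    have ht0 : 0 ≤ θ * (r / 2) := by positivity
    have ht1 : θ * (r / 2) ≤ r / 2 := by nlinarith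
    have hb := hball z _ hz2 ht0 ht1
    have h0 := hT _ hfr hb
    have h3 := hmono z _ ht0 (hball0 z hz2) hb
    have h4 : 0 ≤ m * (θ * (r / 2)) := by positivity
    linarith
  have h2 : z + (r / 2) • w ∈ T ↔ p + (r / 2) • w ∈ T := by
    apply mem_iff_of_segment
    intro u hu hfr
    rw [segment_eq_image'] at hu
    obtain ⟨θ, ⟨hθ0, hθ1⟩, rfl⟩ := hu
    have e : z + (r / 2) • w + θ • (p + (r / 2) • w - (z + (r / 2) • w)) =
        (z + θ • (p - z)) + (r / 2) • w := by module
    simp only [e] at hfr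
    have hyd : dist (z + θ • (p - z)) p ≤ dist z p := by
      rw [dist_eq_norm, dist_eq_norm]
      have e2 : z + θ • (p - z) - p = (1 - θ) • (z - p) := by module
      rw [e2, norm_smul, Real.norm_of_nonneg (by linarith)]
      nlinarith [norm_nonneg (z - p)]
    have hy2 : dist (z + θ • (p - z)) p < r / 2 := lt_of_le_of_lt hyd hz2
    have hy1 : dist (z + θ • (p - z)) p < δ := lt_of_le_of_lt hyd hz1
    have hb := hball _ (r / 2) hy2 (by positivity) le_rfl
    have h0 := hT _ hfr hb
    have h3 := hmono _ (r / 2) (by positivity) (hball0 _ hy2) hb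
    have h4 := hδq _ hy1
    rw [hqp, Real.dist_eq, sub_zero] at h4
    have h5 := (abs_lt.1 h4).1
    linarith
  exact h1.trans h2

theorem side {q : ℂ → ℝ} {w p : ℂ} {r m : ℝ} (hw : ‖w‖ = 1) (hm : 0 < m) (hr : 0 < r)
    (hqc : Continuous q)
    (hmono : ∀ (z : ℂ) (t : ℝ), 0 ≤ t → z ∈ ball p r → z + t • w ∈ ball p r →
      q z + m * t ≤ q (z + t • w))
    (hqp : q p = 0) {T : Set ℂ} (hT : ∀ z ∈ frontier T, z ∈ ball p r → q z = 0) :
    ∃ r₁ > 0, r₁ ≤ r ∧
      (∀ z ∈ ball p r₁, 0 < q z → (z ∈ T ↔ p + (r / 2) • w ∈ T)) ∧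
      (∀ z ∈ ball p r₁, q z < 0 → (z ∈ T ↔ p - (r / 2) • w ∈ T)) := by
  obtain ⟨a, ha, har, hA⟩ := side_pos hw hm hr hqc hmono hqp hT
  have hmono' : ∀ (z : ℂ) (t : ℝ), 0 ≤ t → z ∈ ball p r → z + t • (-w) ∈ ball p r →
      (fun x => - q x) z + m * t ≤ (fun x => - q x) (z + t • (-w)) := by
    intro z t ht hz hz'
    have e : z + t • (-w) + t • w = z := by module
    have h3 := hmono (z + t • (-w)) t ht hz' (by rw [e]; exact hz)
    rw [e] at h3
    simp only
    linarith
  obtain ⟨b, hb, hbr, hB⟩ := side_pos (q := fun x => - q x) (w := -w) (by rw [norm_neg]; exact hw)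
    hm hr hqc.neg hmono' (by simp [hqp]) (T := T)
    (fun z hz hzb => by simp [hT z hz hzb])
  refine ⟨min a b, lt_min ha hb, (min_le_left _ _).trans har, ?_, ?_⟩
  · intro z hz hq
    exact hA z (ball_subset_ball (min_le_left _ _) hz) hq
  · intro z hz hq
    have h := hB z (ball_subset_ball (min_le_right _ _) hz) (by simpa using hq)
    have e : p + (r / 2) • (-w) = p - (r / 2) • w := by module
    rw [e] at h
    exact h

end Vale.Agent.Lib.P274.SA
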