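import Mathlib
import Vale.Agent.Lib.P274.SA.Side

/-!
# LEAF L: one side of `{q = 0}` lies in `closure U`, the other one outside
Apply `side` with `T = closure U`, get `r₁`.
(1) `p ∈ closure (closure U)ᶜ` (`frontier_eq_closure_inter_closure`), so the open set
`(closure U)ᶜ ∩ ball p r₁` is nonempty; it contains a point with `q ≠ 0` (if `q z = 0` move to
`z + t • w` with `t > 0` small: `hmono` gives `q ≥ m t > 0`).
(2) `p ∈ closure U`, so the open set `U ∩ ball p r₁` is nonempty and likewise contains a point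
with `q ≠ 0`, which lies in `closure U`.
By `side` the two points are on different sides, which gives the two alternatives.
-/

namespace Vale.Agent.Lib.P274.SA

open Metric

private theorem exists_ne_zero {q : ℂ → ℝ} {w p : ℂ} {r m r₁ : ℝ} (hw : ‖w‖ = 1) (hm : 0 < m)
    (hr₁r : r₁ ≤ r)
    (hmono : ∀ (z : ℂ) (t : ℝ), 0 ≤ t → z ∈ ball p r → z + t • w ∈ ball p r →
      q z + m * t ≤ q (z + t • w))
    {O : Set ℂ} (hO : IsOpen O) (hne : (O ∩ ball p r₁).Nonempty) :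
    ∃ z ∈ O, z ∈ ball p r₁ ∧ q z ≠ 0 := by
  obtain ⟨z0, hz0O, hz0b⟩ := hne
  by_cases hq : q z0 = 0
  · have hWo : IsOpen (O ∩ ball p r₁) := hO.inter isOpen_ball
    obtain ⟨ε, hε, hsub⟩ := Metric.isOpen_iff.mp hWo z0 ⟨hz0O, hz0b⟩
    have hmem : z0 + (ε / 2) • w ∈ ball z0 ε := by
      rw [mem_ball, dist_eq_norm, add_sub_cancel_left, norm_smul, hw, mul_one, Real.norm_eq_abs,
        abs_of_pos (by positivity)]
      linarith
    have hW := hsub hmem
    have hbr : ball p r₁ ⊆ ball p r := ball_subset_ball hr₁r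
    have h := hmono z0 (ε / 2) (by positivity) (hbr hz0b) (hbr hW.2)
    refine ⟨z0 + (ε / 2) • w, hW.1, hW.2, ?_⟩
    have : 0 < m * (ε / 2) := by positivity
    rw [hq] at h
    linarith
  · exact ⟨z0, hz0O, hz0b, hq⟩

theorem dichotomy {q : ℂ → ℝ} {w p : ℂ} {r m : ℝ} (hw : ‖w‖ = 1) (hm : 0 < m) (hr : 0 < r)
    (hqc : Continuous q)
    (hmono : ∀ (z : ℂ) (t : ℝ), 0 ≤ t → z ∈ ball p r → z + t • w ∈ ball p r →
      q z + m * t ≤ q (z + t • w))
    (hqp : q p = 0) {U : Set ℂ} (hUo : IsOpen U) (hp : p ∈ frontier (closure U))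
    (hE : ∀ z ∈ frontier (closure U), z ∈ ball p r → q z = 0) :
    ∃ r₁ > 0, r₁ ≤ r ∧
      (((∀ z ∈ ball p r₁, 0 < q z → z ∈ closure U) ∧ (∀ z ∈ ball p r₁, q z < 0 → z ∉ closure U)) ∨
       ((∀ z ∈ ball p r₁, 0 < q z → z ∉ closure U) ∧ (∀ z ∈ ball p r₁, q z < 0 → z ∈ closure U))) := by
  obtain ⟨r₁, hr₁, hr₁r, hpos, hneg⟩ := side hw hm hr hqc hmono hqp (T := closure U) hE
  refine ⟨r₁, hr₁, hr₁r, ?_⟩
  rw [frontier_eq_closure_inter_closure, closure_closure] at hp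
  obtain ⟨hp1, hp2⟩ := hp
  have hn1 : ((closure U)ᶜ ∩ ball p r₁).Nonempty := by
    obtain ⟨y, hy, hd⟩ := Metric.mem_closure_iff.mp hp2 r₁ hr₁
    exact ⟨y, hy, by rw [mem_ball, dist_comm]; exact hd⟩
  have hn2 : (U ∩ ball p r₁).Nonempty := by
    obtain ⟨y, hy, hd⟩ := Metric.mem_closure_iff.mp hp1 r₁ hr₁
    exact ⟨y, hy, by rw [mem_ball, dist_comm]; exact hd⟩
  obtain ⟨z₁, hz₁c, hz₁b, hz₁q⟩ :=
    exists_ne_zero hw hm hr₁r hmono isClosed_closure.isOpen_compl hn1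
  obtain ⟨z₂, hz₂U, hz₂b, hz₂q⟩ := exists_ne_zero hw hm hr₁r hmono hUo hn2
  have hz₂c : z₂ ∈ closure U := subset_closure hz₂U
  have hz₁c' : z₁ ∉ closure U := hz₁c
  rcases lt_or_gt_of_ne hz₁q with h1 | h1
  · -- q z₁ < 0
    have hN : p - (r / 2) • w ∉ closure U := fun h => hz₁c' ((hneg z₁ hz₁b h1).mpr h)
    rcases lt_or_gt_of_ne hz₂q with h2 | h2
    · exact absurd ((hneg z₂ hz₂b h2).mp hz₂c) hN
    · have hP : p + (r / 2) • w ∈ closure U := (hpos z₂ hz₂b h2).mp hz₂c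
      left
      exact ⟨fun z hz hq => (hpos z hz hq).mpr hP, fun z hz hq h => hN ((hneg z hz hq).mp h)⟩
  · -- 0 < q z₁
    have hP : p + (r / 2) • w ∉ closure U := fun h => hz₁c' ((hpos z₁ hz₁b h1).mpr h)
    rcases lt_or_gt_of_ne hz₂q with h2 | h2
    · have hN : p - (r / 2) • w ∈ closure U := (hneg z₂ hz₂b h2).mp hz₂c
      right
      exact ⟨fun z hz hq h => hP ((hpos z hz hq).mp h), fun z hz hq => (hneg z hz hq).mpr hN⟩
    · exact absurd ((hpos z₂ hz₂b h2).mp hz₂c) hP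

end Vale.Agent.Lib.P274.SA
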