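import Mathlib

/-!
# LEAF M: second order Taylor bound for a `C^2` function
`fderiv ℝ q` is `C^1`, hence Lipschitz near `a`
(`(hq.fderiv_right (m := 1) (by norm_num)).contDiffAt.exists_lipschitzOnWith`), which gives `K`
and a ball `ball a δ₁` with `‖fderiv ℝ q z - fderiv ℝ q a‖ ≤ K * ‖z - a‖`.  For `z ∈ ball a δ₁` apply
the mean value inequality (`Convex.norm_image_sub_le_of_norm_fderiv_le`) to
`f u = q u - fderiv ℝ q a (u - a)` on the convex set `closedBall a ‖z - a‖` (contained in the ball),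
where `‖fderiv ℝ f u‖ ≤ K * ‖z - a‖`.
-/

namespace Vale.Agent.Lib.P274.SA

open Metric

theorem taylor_two {q : ℂ → ℝ} (hq : ContDiff ℝ 2 q) (a : ℂ) :
    ∃ K > 0, ∃ δ₁ > 0, ∀ z ∈ ball a δ₁,
      |q z - q a - fderiv ℝ q a (z - a)| ≤ K * ‖z - a‖ ^ 2 := by
  have h1 : ContDiff ℝ 1 (fderiv ℝ q) := hq.fderiv_right (m := 1) (by norm_num)
  obtain ⟨K, t, ht, hK⟩ := (h1.contDiffAt (x := a)).exists_lipschitzOnWith
  obtain ⟨δ, hδ, hball⟩ := Metric.mem_nhds_iff.mp ht
  have hdiff : Differentiable ℝ q := hq.differentiable (by norm_num)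
  refine ⟨(K : ℝ) + 1, by positivity, δ, hδ, fun z hz => ?_⟩
  have hr : ‖z - a‖ < δ := by
    rw [← dist_eq_norm]; exact hz
  have hsub : closedBall a ‖z - a‖ ⊆ t := fun u hu =>
    hball (lt_of_le_of_lt hu hr)
  have ha : a ∈ closedBall a ‖z - a‖ := mem_closedBall_self (norm_nonneg _)
  have hzm : z ∈ closedBall a ‖z - a‖ := by
    rw [mem_closedBall, dist_eq_norm]
  have hder : ∀ u ∈ closedBall a ‖z - a‖,
      HasFDerivWithinAt (fun u => q u - fderiv ℝ q a (u - a))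
        (fderiv ℝ q u - fderiv ℝ q a) (closedBall a ‖z - a‖) u := by
    intro u _
    have e1 : HasFDerivAt q (fderiv ℝ q u) u := (hdiff u).hasFDerivAt
    have e2 : HasFDerivAt (fun u => fderiv ℝ q a (u - a)) (fderiv ℝ q a) u := by
      have h := (fderiv ℝ q a).hasFDerivAt.comp u ((hasFDerivAt_id u).sub_const a)
      rw [ContinuousLinearMap.comp_id] at h
      exact h
    exact (e1.sub e2).hasFDerivWithinAt
  have hbound : ∀ u ∈ closedBall a ‖z - a‖,
      ‖fderiv ℝ q u - fderiv ℝ q a‖ ≤ (K : ℝ) * ‖z - a‖ := by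
    intro u hu
    have := hK.dist_le_mul u (hsub hu) a (hsub ha)
    rw [dist_eq_norm] at this
    exact this.trans (mul_le_mul_of_nonneg_left hu K.coe_nonneg)
  have key := Convex.norm_image_sub_le_of_norm_hasFDerivWithin_le hder hbound
    (convex_closedBall a _) ha hzm
  have e : (q z - fderiv ℝ q a (z - a)) - (q a - fderiv ℝ q a (a - a))
      = q z - q a - fderiv ℝ q a (z - a) := by
    simp
    ring
  rw [e, Real.norm_eq_abs] at key
  calc |q z - q a - fderiv ℝ q a (z - a)| ≤ (K : ℝ) * ‖z - a‖ * ‖z - a‖ := key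
    _ = (K : ℝ) * ‖z - a‖ ^ 2 := by ring
    _ ≤ ((K : ℝ) + 1) * ‖z - a‖ ^ 2 := by
      have : 0 ≤ ‖z - a‖ ^ 2 := by positivity
      nlinarith

end Vale.Agent.Lib.P274.SA
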