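import Mathlib
import Vale.Agent.Lib.P274.SA.Taylor

/-!
# LEAF N: two touching discs on the two sides of a regular zero of a `C^2` function
Let `ℓ = fderiv ℝ q a ≠ 0` and `ν = (InnerProductSpace.toDual ℝ ℂ).symm ℓ`, so `ℓ v = ⟪ν, v⟫_ℝ`
(`InnerProductSpace.toDual_symm_apply`) and `ν ≠ 0`.  Take `K, δ₁` from `taylor_two`, and `t > 0` with
`t ≤ 1 / (2 K)` and `2 t ‖ν‖ ≤ min δ δ₁`.  Put `c₁ = a + t • ν`, `c₂ = a - t • ν`, `ρ = t ‖ν‖`.
For `z ∈ ball c₁ ρ`: `‖(z - a) - t • ν‖^2 < t^2 ‖ν‖^2` expands (`norm_sub_sq_real`) to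
`‖z - a‖^2 < 2 t ℓ (z - a)`; also `‖z - a‖ < 2 ρ`.  Hence
`q z ≥ ℓ (z - a) - K ‖z - a‖^2 > ‖z - a‖^2 (1 / (2 t) - K) ≥ 0`.  Symmetric for `c₂`.
-/

namespace Vale.Agent.Lib.P274.SA

open Metric

/-- the elementary estimate in the disc of radius `t ‖ν‖` around `t • ν` -/
private theorem disc_est (ν w : ℂ) {t : ℝ} (ht : 0 < t) (h : ‖w - t • ν‖ < t * ‖ν‖) :
    ‖w‖ ^ 2 < 2 * t * inner ℝ ν w ∧ ‖w‖ < 2 * t * ‖ν‖ := by
  have hn : ‖t • ν‖ = t * ‖ν‖ := by rw [norm_smul, Real.norm_of_nonneg ht.le]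
  constructor
  · have h1 : ‖w - t • ν‖ ^ 2 < (t * ‖ν‖) ^ 2 :=
      pow_lt_pow_left₀ h (norm_nonneg _) (by norm_num)
    rw [norm_sub_sq_real, hn, inner_smul_right, real_inner_comm] at h1
    linarith
  · have h2 : ‖w‖ ≤ ‖w - t • ν‖ + ‖t • ν‖ := by
      have := norm_add_le (w - t • ν) (t • ν)
      rwa [sub_add_cancel] at this
    rw [hn] at h2
    linarith

theorem tangent_balls {q : ℂ → ℝ} (hq : ContDiff ℝ 2 q) {a : ℂ} (hqa : q a = 0)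
    (hd : fderiv ℝ q a ≠ 0) {δ : ℝ} (hδ : 0 < δ) :
    ∃ c₁ c₂ : ℂ, ∃ ρ > 0, dist c₁ c₂ = ρ + ρ ∧ (∀ z ∈ ball c₁ ρ, 0 < q z ∧ z ∈ ball a δ) ∧
      (∀ z ∈ ball c₂ ρ, q z < 0 ∧ z ∈ ball a δ) := by
  obtain ⟨K, hK, δ₁, hδ₁, hT⟩ := taylor_two hq a
  set ν : ℂ := (InnerProductSpace.toDual ℝ ℂ).symm (fderiv ℝ q a) with hνdef
  have hℓ : ∀ v : ℂ, fderiv ℝ q a v = inner ℝ ν v := fun v => by
    rw [hνdef, InnerProductSpace.toDual_symm_apply]
  have hν0 : ν ≠ 0 := by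
    intro h0
    apply hd
    ext v
    rw [hℓ v, h0, inner_zero_left]
    rfl
  have hn : 0 < ‖ν‖ := norm_pos_iff.mpr hν0
  have hm : 0 < min δ δ₁ := lt_min hδ hδ₁
  set t : ℝ := min (1 / (2 * K)) (min δ δ₁ / (2 * ‖ν‖)) with htdef
  have ht : 0 < t := lt_min (by positivity) (by positivity)
  have ht1 : 2 * t * K ≤ 1 := by
    have h1 : t ≤ 1 / (2 * K) := min_le_left _ _
    rw [le_div_iff₀ (by positivity)] at h1
    linarith
  have ht2 : 2 * t * ‖ν‖ ≤ min δ δ₁ := by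
    have h1 : t ≤ min δ δ₁ / (2 * ‖ν‖) := min_le_right _ _
    rw [le_div_iff₀ (by positivity)] at h1
    linarith
  have hnt : ‖t • ν‖ = t * ‖ν‖ := by rw [norm_smul, Real.norm_of_nonneg ht.le]
  refine ⟨a + t • ν, a - t • ν, t * ‖ν‖, by positivity, ?_, ?_, ?_⟩
  · rw [dist_eq_norm]
    have h1 : a + t • ν - (a - t • ν) = (2 : ℝ) • (t • ν) := by
      rw [two_smul]; abel
    rw [h1, norm_smul, hnt, Real.norm_of_nonneg (by norm_num)]
    ring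
  · intro z hz
    rw [mem_ball, dist_eq_norm] at hz
    have hz' : ‖(z - a) - t • ν‖ < t * ‖ν‖ := by
      have h1 : z - a - t • ν = z - (a + t • ν) := by abel
      rwa [h1]
    obtain ⟨e1, e2⟩ := disc_est ν (z - a) ht hz'
    have hzδ : ‖z - a‖ < min δ δ₁ := lt_of_lt_of_le e2 ht2
    have hza : z ∈ ball a δ := by
      rw [mem_ball, dist_eq_norm]
      exact lt_of_lt_of_le hzδ (min_le_left _ _)
    have hza1 : z ∈ ball a δ₁ := by
      rw [mem_ball, dist_eq_norm]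
      exact lt_of_lt_of_le hzδ (min_le_right _ _)
    refine ⟨?_, hza⟩
    have hT1 := hT z hza1
    rw [hqa, hℓ, abs_le] at hT1
    have h3 : 2 * t * (K * ‖z - a‖ ^ 2) ≤ ‖z - a‖ ^ 2 := by
      have := mul_le_mul_of_nonneg_right ht1 (sq_nonneg ‖z - a‖)
      nlinarith
    have h4 : 2 * t * (K * ‖z - a‖ ^ 2) < 2 * t * inner ℝ ν (z - a) := lt_of_le_of_lt h3 e1
    have h5 : K * ‖z - a‖ ^ 2 < inner ℝ ν (z - a) :=
      lt_of_mul_lt_mul_left h4 (by positivity)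
    linarith [hT1.1]
  · intro z hz
    rw [mem_ball, dist_eq_norm] at hz
    have hz' : ‖(a - z) - t • ν‖ < t * ‖ν‖ := by
      have h1 : a - z - t • ν = -(z - (a - t • ν)) := by abel
      rwa [h1, norm_neg]
    obtain ⟨e1, e2⟩ := disc_est ν (a - z) ht hz'
    have hsw : ‖a - z‖ = ‖z - a‖ := norm_sub_rev a z
    rw [hsw] at e1 e2
    have hin : inner ℝ ν (a - z) = - inner ℝ ν (z - a) := by
      rw [← inner_neg_right, neg_sub]
    rw [hin] at e1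
    have hzδ : ‖z - a‖ < min δ δ₁ := lt_of_lt_of_le e2 ht2
    have hza : z ∈ ball a δ := by
      rw [mem_ball, dist_eq_norm]
      exact lt_of_lt_of_le hzδ (min_le_left _ _)
    have hza1 : z ∈ ball a δ₁ := by
      rw [mem_ball, dist_eq_norm]
      exact lt_of_lt_of_le hzδ (min_le_right _ _)
    refine ⟨?_, hza⟩
    have hT1 := hT z hza1
    rw [hqa, hℓ, abs_le] at hT1
    have h3 : 2 * t * (K * ‖z - a‖ ^ 2) ≤ ‖z - a‖ ^ 2 := by
      have := mul_le_mul_of_nonneg_right ht1 (sq_nonneg ‖z - a‖)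
      nlinarith
    have h4 : 2 * t * (K * ‖z - a‖ ^ 2) < 2 * t * (- inner ℝ ν (z - a)) := lt_of_le_of_lt h3 e1
    have h5 : K * ‖z - a‖ ^ 2 < - inner ℝ ν (z - a) :=
      lt_of_mul_lt_mul_left h4 (by positivity)
    linarith [hT1.2]

end Vale.Agent.Lib.P274.SA
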