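import Mathlib

/-!
# LEAF H: the foot of a point on the zero set of `q`, along the direction `w`
Let `ε' = min ε (r - dist a p)`, `s = ε' / 2`.  By continuity of `q` at `a` choose `η ≤ ε' / 2`
with `|q z| < m * s` on `ball a η`.  For `z ∈ ball a η` the points `z ± s • w` lie in
`ball a ε' ⊆ ball p r`, and `hmono` gives `q (z - s • w) ≤ q z - m s < 0 < q z + m s ≤ q (z + s • w)`.
Intermediate value theorem for `τ ↦ q (z + τ • w)` on `[-s, s]`
(`intermediate_value_Icc`), and `‖z + τ • w - a‖ < η + s ≤ ε'`.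
-/

namespace Vale.Agent.Lib.P274.SA

open Metric

theorem foot {q : ℂ → ℝ} {w p : ℂ} {r m : ℝ} (hw : ‖w‖ = 1) (hm : 0 < m) (hqc : Continuous q)
    (hmono : ∀ (z : ℂ) (t : ℝ), 0 ≤ t → z ∈ ball p r → z + t • w ∈ ball p r →
      q z + m * t ≤ q (z + t • w))
    {a : ℂ} (ha : a ∈ ball p r) (hqa : q a = 0) {ε : ℝ} (hε : 0 < ε) :
    ∃ η > 0, ∀ z ∈ ball a η, ∃ τ : ℝ, q (z + τ • w) = 0 ∧ z + τ • w ∈ ball a ε ∧ z ∈ ball a ε := by
  have hap : dist a p < r := mem_ball.1 ha
  set ε' := min ε (r - dist a p) with hε'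
  have hε'0 : 0 < ε' := lt_min hε (by linarith)
  have hε'1 : ε' ≤ ε := min_le_left _ _
  have hε'2 : ε' ≤ r - dist a p := min_le_right _ _
  set s := ε' / 2 with hs
  have hs0 : 0 < s := by positivity
  obtain ⟨δ, hδ0, hδ⟩ := Metric.continuous_iff.1 hqc a (m * s) (by positivity)
  refine ⟨min δ (ε' / 2), lt_min hδ0 (by positivity), ?_⟩
  intro z hz
  have hza : dist z a < min δ (ε' / 2) := mem_ball.1 hz
  have hza1 : dist z a < δ := lt_of_lt_of_le hza (min_le_left _ _)
  have hza2 : dist z a < ε' / 2 := lt_of_lt_of_le hza (min_le_right _ _)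
  have hq : |q z| < m * s := by
    have := hδ z hza1
    rwa [hqa, Real.dist_eq, sub_zero] at this
  have hball : ∀ τ : ℝ, |τ| ≤ s → dist (z + τ • w) a < ε' := by
    intro τ hτ
    calc dist (z + τ • w) a ≤ dist (z + τ • w) z + dist z a := dist_triangle _ _ _
      _ = |τ| + dist z a := by
          rw [dist_eq_norm, add_sub_cancel_left, norm_smul, hw, mul_one, Real.norm_eq_abs]
      _ < ε' := by
          rw [hs] at hτ
          linarith
  have hballp : ∀ τ : ℝ, |τ| ≤ s → z + τ • w ∈ ball p r := by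
    intro τ hτ
    rw [mem_ball]
    calc dist (z + τ • w) p ≤ dist (z + τ • w) a + dist a p := dist_triangle _ _ _
      _ < r := by
          have := hball τ hτ
          linarith
  have hzp : z ∈ ball p r := by
    have := hballp 0 (by simpa using hs0.le)
    simpa using this
  have e : z + (-s) • w + s • w = z := by
    rw [neg_smul]
    abel
  have h1 : q (z + (-s) • w) < 0 := by
    have h := hmono (z + (-s) • w) s hs0.le (hballp (-s) (by rw [abs_neg, abs_of_pos hs0]))
      (by rw [e]; exact hzp)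
    rw [e] at h
    have := (abs_lt.1 hq).2
    linarith
  have h2 : 0 < q (z + s • w) := by
    have h := hmono z s hs0.le hzp (hballp s (by rw [abs_of_pos hs0]))
    have := (abs_lt.1 hq).1
    linarith
  have hcont : ContinuousOn (fun τ : ℝ => q (z + τ • w)) (Set.Icc (-s) s) := by
    apply Continuous.continuousOn
    exact hqc.comp (by fun_prop)
  have hivt := intermediate_value_Icc (by linarith : -s ≤ s) hcont
  obtain ⟨τ, hτ, hτ0⟩ := hivt ⟨h1.le, h2.le⟩
  refine ⟨τ, hτ0, ?_, ?_⟩
  · exact mem_ball.2 (lt_of_lt_of_le (hball τ (abs_le.2 hτ)) hε'1)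
  · exact mem_ball.2 (by linarith)

end Vale.Agent.Lib.P274.SA
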