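import Mathlib
import Vale.Agent.Lib.P274.SA.Defs

/-!
# LEAF E: the frontier of a semialgebraic set lies in the zero set of a nonzero polynomial
`ev_ne_zero`: `MvPolynomial.funext` (infinite field): if `eval x P = 0` for all `x : Fin 2 → ℝ`
then `P = 0`; every `x` is `![z.re, z.im]` for `z = ⟨x 0, x 1⟩`.
`ev_continuous`: `MvPolynomial.continuous_eval` composed with a continuous map.
`frontier_subset`: induction on `Semialg S`.  `pos P`: if `P = 0` the set is empty (take `1`),
otherwise `frontier_lt_subset_eq`.  `zero P`: if `P = 0` the set is `univ`, otherwise the set is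
closed (`IsClosed.frontier_subset`).  `union`, `inter`: product of the two polynomials,
`frontier_union_subset`, `frontier_inter_subset`, `ev` is multiplicative (`map_mul`).
`compl`: `frontier_compl`.
-/

namespace Vale.Agent.Lib.P274.SA

theorem ev_continuous (P : MvPolynomial (Fin 2) ℝ) : Continuous (ev P) := by
  unfold ev
  have h1 : Continuous (fun z : ℂ => (![z.re, z.im] : Fin 2 → ℝ)) := by
    apply continuous_pi
    intro i
    fin_cases i
    · exact Complex.continuous_re
    · exact Complex.continuous_im
  exact (MvPolynomial.continuous_eval P).comp h1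

theorem ev_ne_zero {P : MvPolynomial (Fin 2) ℝ} (hP : P ≠ 0) : ∃ z, ev P z ≠ 0 := by
  by_contra hcon
  push Not at hcon
  apply hP
  apply MvPolynomial.funext
  intro x
  have h := hcon ⟨x 0, x 1⟩
  unfold ev at h
  have hx : (![x 0, x 1] : Fin 2 → ℝ) = x := by
    funext i
    fin_cases i <;> rfl
  simp only [hx] at h
  simpa using h

theorem ev_mul (P R : MvPolynomial (Fin 2) ℝ) (z : ℂ) : ev (P * R) z = ev P z * ev R z := by
  unfold ev
  exact map_mul _ _ _

theorem Semialg.frontier_subset {S : Set ℂ} (hS : Semialg S) :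
    ∃ P : MvPolynomial (Fin 2) ℝ, P ≠ 0 ∧ frontier S ⊆ {z | ev P z = 0} := by
  induction hS with
  | pos P =>
    by_cases hP : P = 0
    · refine ⟨1, one_ne_zero, ?_⟩
      have : {z : ℂ | 0 < ev P z} = ∅ := by
        ext z
        simp [hP, ev]
      rw [this, frontier_empty]
      exact Set.empty_subset _
    · refine ⟨P, hP, ?_⟩
      have h := frontier_lt_subset_eq (continuous_const (y := (0 : ℝ))) (ev_continuous P)
      intro z hz
      exact (h hz).symm
  | zero P =>
    by_cases hP : P = 0
    · refine ⟨1, one_ne_zero, ?_⟩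
      have : {z : ℂ | ev P z = 0} = Set.univ := by
        ext z
        simp [hP, ev]
      rw [this, frontier_univ]
      exact Set.empty_subset _
    · refine ⟨P, hP, ?_⟩
      have hcl : IsClosed {z : ℂ | ev P z = 0} :=
        isClosed_eq (ev_continuous P) continuous_const
      exact hcl.frontier_subset
  | union _ _ ihS ihT =>
    obtain ⟨P, hP, hPs⟩ := ihS
    obtain ⟨R, hR, hRs⟩ := ihT
    refine ⟨P * R, mul_ne_zero hP hR, ?_⟩
    intro z hz
    have h := frontier_union_subset _ _ hz
    simp only [Set.mem_ofPred_eq, ev_mul]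
    rcases h with h | h
    · have : ev P z = 0 := hPs h.1
      rw [this, zero_mul]
    · have : ev R z = 0 := hRs h.2
      rw [this, mul_zero]
  | inter _ _ ihS ihT =>
    obtain ⟨P, hP, hPs⟩ := ihS
    obtain ⟨R, hR, hRs⟩ := ihT
    refine ⟨P * R, mul_ne_zero hP hR, ?_⟩
    intro z hz
    have h := frontier_inter_subset _ _ hz
    simp only [Set.mem_ofPred_eq, ev_mul]
    rcases h with h | h
    · have : ev P z = 0 := hPs h.1
      rw [this, zero_mul]
    · have : ev R z = 0 := hRs h.2
      rw [this, mul_zero]
  | compl _ ih =>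
    obtain ⟨P, hP, hPs⟩ := ih
    exact ⟨P, hP, by rw [frontier_compl]; exact hPs⟩

end Vale.Agent.Lib.P274.SA
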