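import Mathlib

/-!
# P274, planar semialgebraic case: polynomial functions of degree at most `d`, via derivatives
-/

namespace Vale.Agent.Lib.P274.SA

/-- `IsPolyDeg d g`: the function `g : ℂ → ℝ` is a real polynomial function of degree at most `d`
in the real coordinates, expressed through its directional derivatives. -/
def IsPolyDeg : ℕ → (ℂ → ℝ) → Prop
  | 0, g => ∃ a : ℝ, ∀ z, g z = a
  | (d + 1), g => Differentiable ℝ g ∧ IsPolyDeg d (fun z => fderiv ℝ g z 1) ∧
      IsPolyDeg d (fun z => fderiv ℝ g z Complex.I)

end Vale.Agent.Lib.P274.SA
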