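import Mathlib
import Vale.Agent.Lib.P274.SA.PolyDef

/-!
# LEAF A: basic closure properties of `IsPolyDeg`
All by induction on `d` (generalizing the functions); `fderiv_add`, `fderiv_neg`, `fderiv_const`.
-/

namespace Vale.Agent.Lib.P274.SA

theorem IsPolyDeg.const (a : ℝ) : IsPolyDeg 0 (fun _ => a) := ⟨a, fun _ => rfl⟩

theorem IsPolyDeg.differentiable {d : ℕ} {g : ℂ → ℝ} (h : IsPolyDeg d g) :
    Differentiable ℝ g := by
  cases d with
  | zero =>
    obtain ⟨a, ha⟩ := h
    have : g = fun _ => a := funext ha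
    rw [this]
    exact differentiable_const a
  | succ d => exact h.1

theorem IsPolyDeg.mono {d : ℕ} {g : ℂ → ℝ} (h : IsPolyDeg d g) : IsPolyDeg (d + 1) g := by
  induction d generalizing g with
  | zero =>
    obtain ⟨a, ha⟩ := h
    have hg : g = fun _ => a := funext ha
    subst hg
    refine ⟨differentiable_const a, ⟨0, fun z => ?_⟩, ⟨0, fun z => ?_⟩⟩
    · simp
    · simp
  | succ d ih => exact ⟨h.1, ih h.2.1, ih h.2.2⟩

theorem IsPolyDeg.mono_le {d e : ℕ} {g : ℂ → ℝ} (hde : d ≤ e) (h : IsPolyDeg d g) :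
    IsPolyDeg e g := by
  induction hde with
  | refl => exact h
  | step _ ih => exact ih.mono

theorem IsPolyDeg.add {d : ℕ} {f g : ℂ → ℝ} (hf : IsPolyDeg d f) (hg : IsPolyDeg d g) :
    IsPolyDeg d (fun z => f z + g z) := by
  induction d generalizing f g with
  | zero =>
    obtain ⟨a, ha⟩ := hf
    obtain ⟨b, hb⟩ := hg
    exact ⟨a + b, fun z => by simp only [ha, hb]⟩
  | succ d ih =>
    have e : ∀ z, fderiv ℝ (fun z => f z + g z) z = fderiv ℝ f z + fderiv ℝ g z :=
      fun z => fderiv_fun_add (hf.1 z) (hg.1 z)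
    refine ⟨hf.1.fun_add hg.1, ?_, ?_⟩
    · have := ih hf.2.1 hg.2.1
      simpa only [e, add_apply] using this
    · have := ih hf.2.2 hg.2.2
      simpa only [e, add_apply] using this

theorem IsPolyDeg.neg {d : ℕ} {g : ℂ → ℝ} (h : IsPolyDeg d g) :
    IsPolyDeg d (fun z => - g z) := by
  induction d generalizing g with
  | zero =>
    obtain ⟨a, ha⟩ := h
    exact ⟨-a, fun z => by simp only [ha]⟩
  | succ d ih =>
    have e : ∀ z, fderiv ℝ (fun z => - g z) z = - fderiv ℝ g z :=
      fun z => fderiv_fun_neg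
    refine ⟨h.1.fun_neg, ?_, ?_⟩
    · have := ih h.2.1
      simpa only [e, neg_apply] using this
    · have := ih h.2.2
      simpa only [e, neg_apply] using this

end Vale.Agent.Lib.P274.SA
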