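import Mathlib
import Vale.Agent.Lib.P274.SA.Defs
import Vale.Agent.Lib.P274.SA.PolyBasic

/-!
# LEAF B: evaluations of real polynomials in `re z`, `im z` are in the class `IsPolyDeg`
`mul_re`, `mul_im`: induction on `d` generalizing `g`; the derivative of `g z * z.re` in the
direction `v` is `fderiv g z v * z.re + g z * v.re` (`fderiv_mul`/`HasFDerivAt.mul`,
`Complex.reCLM.hasFDerivAt`), then use the induction hypothesis, `IsPolyDeg.add`, `IsPolyDeg.mono`.
`ev_isPolyDeg`: `MvPolynomial.induction_on` (constants, sums via `mono_le` to the max,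
multiplication by `X i`, `i = 0` is `re`, `i = 1` is `im`; `Fin.cases`/`fin_cases i`).
-/

namespace Vale.Agent.Lib.P274.SA

theorem IsPolyDeg.mul_const {d : ℕ} {g : ℂ → ℝ} (h : IsPolyDeg d g) (c : ℝ) :
    IsPolyDeg d (fun z => g z * c) := by
  induction d generalizing g with
  | zero =>
    obtain ⟨a, ha⟩ := h
    exact ⟨a * c, fun z => by simp only [ha]⟩
  | succ d ih =>
    have e : ∀ z v, fderiv ℝ (fun z => g z * c) z v = fderiv ℝ g z v * c := by
      intro z v
      have h1 : HasFDerivAt (fun z => g z * c) (c • fderiv ℝ g z) z :=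
        (h.1 z).hasFDerivAt.mul_const c
      rw [h1.fderiv]
      simp [mul_comm]
    refine ⟨fun z => (h.1 z).mul_const c, ?_, ?_⟩
    · simp only [e]
      exact ih h.2.1
    · simp only [e]
      exact ih h.2.2

theorem IsPolyDeg.mul_clm {d : ℕ} {g : ℂ → ℝ} (h : IsPolyDeg d g) (L : ℂ →L[ℝ] ℝ) :
    IsPolyDeg (d + 1) (fun z => g z * L z) := by
  have key : ∀ (g : ℂ → ℝ), Differentiable ℝ g → ∀ z v,
      fderiv ℝ (fun z => g z * L z) z v = fderiv ℝ g z v * L z + g z * L v := by
    intro g hd z v
    have h1 : HasFDerivAt (fun z => g z * L z) (g z • (L : ℂ →L[ℝ] ℝ) + L z • fderiv ℝ g z) z :=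
      (hd z).hasFDerivAt.mul L.hasFDerivAt
    rw [h1.fderiv]
    simp
    ring
  induction d generalizing g with
  | zero =>
    have hd := h.differentiable
    obtain ⟨a, ha⟩ := h
    refine ⟨fun z => (hd z).mul L.differentiableAt, ⟨a * L 1, fun z => ?_⟩,
      ⟨a * L Complex.I, fun z => ?_⟩⟩
    · beta_reduce
      rw [key g hd]
      have hg : g = fun _ => a := funext ha
      subst hg
      simp
    · beta_reduce
      rw [key g hd]
      have hg : g = fun _ => a := funext ha
      subst hg
      simp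
  | succ d ih =>
    have hd : Differentiable ℝ g := h.1
    refine ⟨fun z => (hd z).mul L.differentiableAt, ?_, ?_⟩
    · simp only [key g hd]
      exact (ih h.2.1).add (h.mul_const (L 1))
    · simp only [key g hd]
      exact (ih h.2.2).add (h.mul_const (L Complex.I))

theorem IsPolyDeg.mul_re {d : ℕ} {g : ℂ → ℝ} (h : IsPolyDeg d g) :
    IsPolyDeg (d + 1) (fun z => g z * z.re) :=
  h.mul_clm Complex.reCLM

theorem IsPolyDeg.mul_im {d : ℕ} {g : ℂ → ℝ} (h : IsPolyDeg d g) :
    IsPolyDeg (d + 1) (fun z => g z * z.im) :=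
  h.mul_clm Complex.imCLM

theorem ev_isPolyDeg (P : MvPolynomial (Fin 2) ℝ) : ∃ d, IsPolyDeg d (ev P) := by
  induction P using MvPolynomial.induction_on with
  | C a =>
    exact ⟨0, a, fun z => by simp [ev]⟩
  | add p q hp hq =>
    obtain ⟨d, hd⟩ := hp
    obtain ⟨e, he⟩ := hq
    refine ⟨max d e, ?_⟩
    have h1 : ev (p + q) = fun z => ev p z + ev q z := by
      funext z
      simp [ev]
    rw [h1]
    exact (hd.mono_le (le_max_left d e)).add (he.mono_le (le_max_right d e))
  | mul_X p i hp =>
    obtain ⟨d, hd⟩ := hp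
    refine ⟨d + 1, ?_⟩
    fin_cases i
    · have h1 : ev (p * MvPolynomial.X (0 : Fin 2)) = fun z => ev p z * z.re := by
        funext z
        simp [ev]
      show IsPolyDeg (d + 1) (ev (p * MvPolynomial.X (0 : Fin 2)))
      rw [h1]
      exact hd.mul_re
    · have h1 : ev (p * MvPolynomial.X (1 : Fin 2)) = fun z => ev p z * z.im := by
        funext z
        simp [ev]
      show IsPolyDeg (d + 1) (ev (p * MvPolynomial.X (1 : Fin 2)))
      rw [h1]
      exact hd.mul_im

end Vale.Agent.Lib.P274.SA
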