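import Mathlib
import Vale.Agent.Lib.P274.SA.PolyBasic

/-!
# LEAF C: functions in the class `IsPolyDeg` are smooth
Induction on `d` (for all `n`, generalizing `g`), `contDiff_succ_iff_fderiv`; the derivative is
`fderiv ℝ g z = (fderiv ℝ g z 1) • Complex.reCLM + (fderiv ℝ g z Complex.I) • Complex.imCLM`
(ext on `v = v.re • 1 + v.im • I`), so it is `ContDiff` as soon as the two coefficient functions are.
-/

namespace Vale.Agent.Lib.P274.SA

theorem fderiv_eq_re_im {g : ℂ → ℝ} (z : ℂ) :
    fderiv ℝ g z = (fderiv ℝ g z 1) • Complex.reCLM + (fderiv ℝ g z Complex.I) • Complex.imCLM := by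
  ext v
  have hv : v = (v.re : ℝ) • (1 : ℂ) + (v.im : ℝ) • Complex.I := by
    apply Complex.ext <;> simp
  conv_lhs => rw [hv]
  rw [map_add, map_smul, map_smul]
  simp [mul_comm]

theorem IsPolyDeg.contDiff_nat {d : ℕ} {g : ℂ → ℝ} (h : IsPolyDeg d g) (n : ℕ) :
    ContDiff ℝ n g := by
  induction d generalizing g n with
  | zero =>
    obtain ⟨a, ha⟩ := h
    have hg : g = fun _ => a := funext ha
    rw [hg]
    exact contDiff_const
  | succ d ih =>
    cases n with
    | zero =>
      have : ContDiff ℝ 0 g := contDiff_zero.2 h.1.continuous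
      exact_mod_cast this
    | succ n =>
      have key : ContDiff ℝ ((n : WithTop ℕ∞) + 1) g := by
        rw [contDiff_succ_iff_fderiv]
        refine ⟨h.1, ?_, ?_⟩
        · intro hn
          exact absurd hn (by simp)
        · have e : fderiv ℝ g = fun z => (fderiv ℝ g z 1) • Complex.reCLM
              + (fderiv ℝ g z Complex.I) • Complex.imCLM := funext fderiv_eq_re_im
          rw [e]
          exact ((ih h.2.1 n).smul contDiff_const).add ((ih h.2.2 n).smul contDiff_const)
      exact_mod_cast key

theorem IsPolyDeg.contDiff_two {d : ℕ} {g : ℂ → ℝ} (h : IsPolyDeg d g) : ContDiff ℝ 2 g := by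
  exact_mod_cast h.contDiff_nat 2

end Vale.Agent.Lib.P274.SA
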