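import Mathlib
import Vale.Agent.Lib.P274.SA.PolyBasic

/-!
# LEAF D: identity principle for the class `IsPolyDeg`
`const_of_deriv_zero`: the derivative vanishes (`v = v.re • 1 + v.im • I`), then
`is_const_of_fderiv_eq_zero`.
`eq_zero_of_ball`: induction on `d` generalizing `g`. If `g = 0` on the ball then `fderiv ℝ g z = 0`
for `z` in the ball (`Filter.EventuallyEq.fderiv_eq`), so both directional derivatives vanish on the
ball, hence everywhere by the induction hypothesis, so `g` is constant, and the constant is `0`.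
-/

namespace Vale.Agent.Lib.P274.SA

open Metric

theorem const_of_deriv_zero {g : ℂ → ℝ} (hg : Differentiable ℝ g)
    (h1 : ∀ z, fderiv ℝ g z 1 = 0) (hI : ∀ z, fderiv ℝ g z Complex.I = 0) :
    ∃ a : ℝ, ∀ z, g z = a := by
  have hz : ∀ z, fderiv ℝ g z = 0 := by
    intro z
    ext v
    have hv : v = v.re • (1 : ℂ) + v.im • Complex.I := by
      apply Complex.ext <;> simp
    rw [hv, map_add, map_smul, map_smul, h1, hI]
    simp
  exact ⟨g 0, fun z => is_const_of_fderiv_eq_zero hg hz z 0⟩

theorem IsPolyDeg.eq_zero_of_ball {d : ℕ} {g : ℂ → ℝ} (h : IsPolyDeg d g) {a : ℂ} {η : ℝ}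
    (hη : 0 < η) (h0 : ∀ z ∈ ball a η, g z = 0) : ∀ z, g z = 0 := by
  induction d generalizing g with
  | zero =>
    obtain ⟨c, hc⟩ := h
    have hc0 : c = 0 := by
      rw [← hc a]
      exact h0 a (mem_ball_self hη)
    intro z
    rw [hc z, hc0]
  | succ d ih =>
    obtain ⟨hdiff, hp1, hpI⟩ := h
    have hfd : ∀ z ∈ ball a η, fderiv ℝ g z = 0 := by
      intro z hz
      have hev : g =ᶠ[nhds z] fun _ => (0 : ℝ) := by
        filter_upwards [isOpen_ball.mem_nhds hz] with w hw
        exact h0 w hw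
      rw [hev.fderiv_eq]
      simp
    have e1 : ∀ z, fderiv ℝ g z 1 = 0 :=
      ih hp1 (fun z hz => by rw [hfd z hz]; rfl)
    have eI : ∀ z, fderiv ℝ g z Complex.I = 0 :=
      ih hpI (fun z hz => by rw [hfd z hz]; rfl)
    obtain ⟨c, hc⟩ := const_of_deriv_zero hdiff e1 eI
    have hc0 : c = 0 := by
      rw [← hc a]
      exact h0 a (mem_ball_self hη)
    intro z
    rw [hc z, hc0]

end Vale.Agent.Lib.P274.SA
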