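import Mathlib
import Vale.Agent.Lib.P274.SA.PolyBasic
import Vale.Agent.Lib.P274.SA.PolyIdent

/-!
# LEAF F: a regular point
Induction on `d` generalizing `g p r`.
`d = 0`: `g` is a nonzero constant but `g p = 0`, contradiction.
`d + 1`: if some `p' ∈ E ∩ ball p r` has `fderiv ℝ g p' 1 ≠ 0` or `fderiv ℝ g p' I ≠ 0`, take
`q = g` or `q = -g` (`IsPolyDeg.neg`, `fderiv_neg`) and `r' = r - dist p' p`.  Otherwise both
directional derivatives vanish on `E ∩ ball p r`; if one of them is not identically zero apply the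
induction hypothesis to it; if both vanish identically, `g` is constant (`const_of_deriv_zero`),
contradiction as in the case `d = 0`.
-/

namespace Vale.Agent.Lib.P274.SA

open Metric

theorem exists_regular (E : Set ℂ) (d : ℕ) (g : ℂ → ℝ) (hg : IsPolyDeg d g) (p : ℂ) (hp : p ∈ E)
    (r : ℝ) (hr : 0 < r) (hz : ∀ z ∈ E, z ∈ ball p r → g z = 0) (hne : ∃ z, g z ≠ 0) :
    ∃ (e : ℕ) (q : ℂ → ℝ) (p' : ℂ) (r' : ℝ) (w : ℂ), IsPolyDeg e q ∧ p' ∈ E ∧ 0 < r' ∧
      (w = 1 ∨ w = Complex.I) ∧ (∀ z ∈ E, z ∈ ball p' r' → q z = 0) ∧ 0 < fderiv ℝ q p' w := by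
  induction d generalizing g p r with
  | zero =>
    obtain ⟨a, ha⟩ := hg
    obtain ⟨z, hz0⟩ := hne
    exfalso
    have h1 : g p = 0 := hz p hp (mem_ball_self hr)
    apply hz0
    rw [ha z, ← ha p, h1]
  | succ d ih =>
    by_cases hex : ∃ p' ∈ E, p' ∈ ball p r ∧
        (fderiv ℝ g p' 1 ≠ 0 ∨ fderiv ℝ g p' Complex.I ≠ 0)
    · obtain ⟨p', hp'E, hp'b, hder⟩ := hex
      have hr' : 0 < r - dist p' p := by
        rw [mem_ball] at hp'b
        linarith
      have hsub : ∀ z, z ∈ ball p' (r - dist p' p) → z ∈ ball p r := by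
        intro z hz'
        rw [mem_ball] at hz' ⊢
        calc dist z p ≤ dist z p' + dist p' p := dist_triangle _ _ _
          _ < r := by linarith
      have key : ∀ w : ℂ, (w = 1 ∨ w = Complex.I) → fderiv ℝ g p' w ≠ 0 →
          ∃ (e : ℕ) (q : ℂ → ℝ) (p' : ℂ) (r' : ℝ) (w : ℂ), IsPolyDeg e q ∧ p' ∈ E ∧ 0 < r' ∧
            (w = 1 ∨ w = Complex.I) ∧ (∀ z ∈ E, z ∈ ball p' r' → q z = 0) ∧
            0 < fderiv ℝ q p' w := by
        intro w hw hne'
        rcases lt_or_gt_of_ne hne' with hlt | hgt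
        · refine ⟨d + 1, fun z => - g z, p', r - dist p' p, w, hg.neg, hp'E, hr', hw, ?_, ?_⟩
          · intro z hzE hzb
            simp [hz z hzE (hsub z hzb)]
          · rw [fderiv_fun_neg]
            simpa using hlt
        · exact ⟨d + 1, g, p', _, w, hg, hp'E, hr', hw,
            fun z hzE hzb => hz z hzE (hsub z hzb), hgt⟩
      rcases hder with h | h
      · exact key 1 (Or.inl rfl) h
      · exact key Complex.I (Or.inr rfl) h
    · push Not at hex
      by_cases h1 : ∃ z, fderiv ℝ g z 1 ≠ 0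
      · exact ih (fun z => fderiv ℝ g z 1) hg.2.1 p hp r hr
          (fun z hzE hzb => (hex z hzE hzb).1) h1
      · by_cases hI : ∃ z, fderiv ℝ g z Complex.I ≠ 0
        · exact ih (fun z => fderiv ℝ g z Complex.I) hg.2.2 p hp r hr
            (fun z hzE hzb => (hex z hzE hzb).2) hI
        · push Not at h1 hI
          obtain ⟨a, ha⟩ := const_of_deriv_zero hg.1 h1 hI
          obtain ⟨z, hz0⟩ := hne
          exfalso
          have h2 : g p = 0 := hz p hp (mem_ball_self hr)
          apply hz0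
          rw [ha z, ← ha p, h2]

end Vale.Agent.Lib.P274.SA
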