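import Mathlib
import Vale.Agent.Lib.P274.SA.Foot

/-!
# LEAF I: Rolle along the direction `w`, between a zero of `R` and its foot on `{q = 0}`
Apply `foot` with `ε' = min ε (r - dist a p)` (so `ball a ε' ⊆ ball a ε ∩ ball p r`), get `η`.
For `z ∈ ball a η` with `R z = 0`, `q z ≠ 0`: the foot `z' = z + τ • w` has `q z' = 0`, so `τ ≠ 0`
and `R z' = 0` by `hRz`.  Rolle (`exists_deriv_eq_zero`, or `exists_hasDerivAt_eq_zero`) for
`φ t = R (z + t • w)` between `0` and `τ` gives `c` strictly between with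
`fderiv ℝ R (z + c • w) w = 0`.  `ζ = z + c • w` is in the segment `[z, z']`, hence in the convex
`ball a ε'`.  `q ζ ≠ 0`: `hmono` between `ζ` and `z'` (`c < τ`: `q ζ + m (τ - c) ≤ q z' = 0`;
`τ < c`: `0 + m (c - τ) ≤ q ζ`).
-/

namespace Vale.Agent.Lib.P274.SA

open Metric

/-- derivative of `t ↦ R (z + t • w)`. -/
theorem hasDerivAt_line {R : ℂ → ℝ} (hR : Differentiable ℝ R) (z w : ℂ) (t : ℝ) :
    HasDerivAt (fun s : ℝ => R (z + s • w)) (fderiv ℝ R (z + t • w) w) t := by
  have h1 : HasDerivAt (fun s : ℝ => z + s • w) w t := by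
    have h := ((hasDerivAt_id t).smul_const w).const_add z
    simpa using h
  exact (hR (z + t • w)).hasFDerivAt.comp_hasDerivAt t h1

theorem rolle_dir {q R : ℂ → ℝ} {w p : ℂ} {r m : ℝ} (hw : ‖w‖ = 1) (hm : 0 < m)
    (hqc : Continuous q)
    (hmono : ∀ (z : ℂ) (t : ℝ), 0 ≤ t → z ∈ ball p r → z + t • w ∈ ball p r →
      q z + m * t ≤ q (z + t • w))
    (hR : Differentiable ℝ R) {a : ℂ} (ha : a ∈ ball p r) (hqa : q a = 0) {ε : ℝ} (hε : 0 < ε)
    (hRz : ∀ z ∈ ball a ε, q z = 0 → R z = 0) :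
    ∃ η > 0, ∀ z ∈ ball a η, R z = 0 → q z ≠ 0 →
      ∃ ζ ∈ ball a ε, q ζ ≠ 0 ∧ fderiv ℝ R ζ w = 0 := by
  have hap : 0 < r - dist a p := by
    have := mem_ball.1 ha
    linarith
  have hε' : 0 < min ε (r - dist a p) := lt_min hε hap
  have hsub1 : ball a (min ε (r - dist a p)) ⊆ ball a ε := ball_subset_ball (min_le_left _ _)
  have hsub2 : ball a (min ε (r - dist a p)) ⊆ ball p r := by
    intro x hx
    have h1 := mem_ball.1 hx
    have h2 : min ε (r - dist a p) ≤ r - dist a p := min_le_right _ _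
    have h3 := dist_triangle x a p
    exact mem_ball.2 (by linarith)
  obtain ⟨η, hη, hfoot⟩ := foot hw hm hqc hmono ha hqa hε'
  refine ⟨η, hη, fun z hz hRz0 hqz => ?_⟩
  obtain ⟨τ, hqτ, hzτ, hzε⟩ := hfoot z hz
  have hτ0 : τ ≠ 0 := by
    intro h
    apply hqz
    rw [h] at hqτ
    simpa using hqτ
  have hRτ : R (z + τ • w) = 0 := hRz _ (hsub1 hzτ) hqτ
  have hcont : Continuous (fun s : ℝ => R (z + s • w)) :=
    continuous_iff_continuousAt.2 fun t => (hasDerivAt_line hR z w t).continuousAt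
  -- points of the segment
  have hseg : ∀ c : ℝ, 0 ≤ c / τ → c / τ ≤ 1 → z + c • w ∈ ball a (min ε (r - dist a p)) := by
    intro c h0 h1
    have h := (convex_ball a (min ε (r - dist a p))).add_smul_mem hzε hzτ ⟨h0, h1⟩
    rw [smul_smul, div_mul_cancel₀ _ hτ0] at h
    exact h
  rcases lt_or_gt_of_ne hτ0 with hneg | hpos
  · -- τ < 0
    obtain ⟨c, ⟨hc1, hc2⟩, hc⟩ := exists_hasDerivAt_eq_zero
      (f := fun s : ℝ => R (z + s • w)) (f' := fun s : ℝ => fderiv ℝ R (z + s • w) w) hneg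
      hcont.continuousOn (by
        show R (z + τ • w) = R (z + (0 : ℝ) • w)
        rw [hRτ, zero_smul, add_zero, hRz0]) (fun x _ => hasDerivAt_line hR z w x)
    have hζ : z + c • w ∈ ball a (min ε (r - dist a p)) := by
      apply hseg c
      · exact div_nonneg_of_nonpos hc2.le hneg.le
      · rw [div_le_one_of_neg hneg]
        exact hc1.le
    refine ⟨z + c • w, hsub1 hζ, ?_, hc⟩
    have hEq : z + τ • w + (c - τ) • w = z + c • w := by
      rw [add_assoc, ← add_smul]
      congr 2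
      ring
    have h := hmono (z + τ • w) (c - τ) (by linarith) (hsub2 hzτ) (by rw [hEq]; exact hsub2 hζ)
    rw [hEq, hqτ] at h
    have : 0 < m * (c - τ) := mul_pos hm (by linarith)
    intro h0
    linarith
  · -- 0 < τ
    obtain ⟨c, ⟨hc1, hc2⟩, hc⟩ := exists_hasDerivAt_eq_zero
      (f := fun s : ℝ => R (z + s • w)) (f' := fun s : ℝ => fderiv ℝ R (z + s • w) w) hpos
      hcont.continuousOn (by
        show R (z + (0 : ℝ) • w) = R (z + τ • w)
        rw [hRτ, zero_smul, add_zero, hRz0]) (fun x _ => hasDerivAt_line hR z w x)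
    have hζ : z + c • w ∈ ball a (min ε (r - dist a p)) := by
      apply hseg c
      · exact div_nonneg hc1.le hpos.le
      · rw [div_le_one hpos]
        exact hc2.le
    refine ⟨z + c • w, hsub1 hζ, ?_, hc⟩
    have hEq : z + c • w + (τ - c) • w = z + τ • w := by
      rw [add_assoc, ← add_smul]
      congr 2
      ring
    have h := hmono (z + c • w) (τ - c) (by linarith) (hsub2 hζ) (by rw [hEq]; exact hsub2 hzτ)
    rw [hEq, hqτ] at h
    have : 0 < m * (τ - c) := mul_pos hm (by linarith)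
    intro h0
    linarith

end Vale.Agent.Lib.P274.SA
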