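import Mathlib
import Vale.Agent.Lib.P274.SA.PolyBasic
import Vale.Agent.Lib.P274.SA.PolyIdent
import Vale.Agent.Lib.P274.SA.Foot
import Vale.Agent.Lib.P274.SA.Rolle

/-!
# LEAF J: near some point of `{q = 0}` the zeros of a nonzero polynomial function `R` lie on `{q = 0}`
Induction on `d` generalizing `R a₀ ε`.
`d = 0`: `R` is a nonzero constant; take `a = a₀`, `δ = 1`.
`d + 1`: let `R' z = fderiv ℝ R z w`, in `IsPolyDeg d` (`w = 1` or `w = I`).
* If `R'` is not identically zero: the induction hypothesis at `a₀` with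
  `ε₁ = min (ε / 2) (r - dist a₀ p)` gives `a`, `δ`; put `δ₁ = min δ (ε / 2)`.
  If some `a' ∈ ball a δ₁` has `q a' = 0`, `R a' ≠ 0`: `R ≠ 0` on a ball about `a'` (continuity); take it.
  Otherwise `rolle_dir` at `a` with `ε := δ₁` gives `η`; take `(a, η)`: a zero `z` of `R` with
  `q z ≠ 0` would give `ζ ∈ ball a δ` with `R' ζ = 0`, `q ζ ≠ 0`, against the induction hypothesis.
* If `R' = 0` identically: `R (z + τ • w) = R z` for all `τ` (`is_const_of_deriv_eq_zero` for
  `t ↦ R (z + t • w)`).  If `R` vanished at all `a ∈ ball a₀ ε` with `q a = 0`, then by `foot` it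
  would vanish on a ball about `a₀`, hence everywhere (`IsPolyDeg.eq_zero_of_ball`).  So some
  `a ∈ ball a₀ ε` has `q a = 0`, `R a ≠ 0`, and `R ≠ 0` on a ball about `a`.
-/

namespace Vale.Agent.Lib.P274.SA

open Metric

theorem exists_ball_ne_zero {R : ℂ → ℝ} (hR : Continuous R) {a : ℂ} (ha : R a ≠ 0) :
    ∃ δ > 0, ∀ z ∈ ball a δ, R z ≠ 0 :=
  Metric.eventually_nhds_iff_ball.1 (hR.continuousAt.eventually_ne ha)

theorem const_along {R : ℂ → ℝ} (hR : Differentiable ℝ R) {w : ℂ}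
    (h0 : ∀ z, fderiv ℝ R z w = 0) (z : ℂ) (τ : ℝ) : R (z + τ • w) = R z := by
  have hd : ∀ t : ℝ, HasDerivAt (fun t : ℝ => R (z + t • w)) 0 t := by
    intro t
    have h1 : HasDerivAt (fun t : ℝ => z + t • w) w t := by
      have h2 : HasDerivAt (fun t : ℝ => t • w) ((1 : ℝ) • w) t := (hasDerivAt_id t).smul_const w
      rw [one_smul] at h2
      exact h2.const_add z
    have h3 := (hR (z + t • w)).hasFDerivAt.comp_hasDerivAt t h1
    rw [h0] at h3
    exact h3
  have hdiff : Differentiable ℝ (fun t : ℝ => R (z + t • w)) := fun t => (hd t).differentiableAt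
  have := is_const_of_deriv_eq_zero hdiff (fun t => (hd t).deriv) τ 0
  simpa using this

theorem slit {q : ℂ → ℝ} {w p : ℂ} {r m : ℝ} (hw : w = 1 ∨ w = Complex.I) (hm : 0 < m)
    (hqc : Continuous q)
    (hmono : ∀ (z : ℂ) (t : ℝ), 0 ≤ t → z ∈ ball p r → z + t • w ∈ ball p r →
      q z + m * t ≤ q (z + t • w))
    (d : ℕ) (R : ℂ → ℝ) (hR : IsPolyDeg d R) (hne : ∃ z, R z ≠ 0)
    (a₀ : ℂ) (ha₀ : a₀ ∈ ball p r) (hqa₀ : q a₀ = 0) (ε : ℝ) (hε : 0 < ε) :
    ∃ a ∈ ball a₀ ε, ∃ δ > 0, q a = 0 ∧ ∀ z ∈ ball a δ, R z = 0 → q z = 0 := by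
  have hw1 : ‖w‖ = 1 := by
    rcases hw with h | h <;> simp [h]
  induction d generalizing R a₀ ε with
  | zero =>
    obtain ⟨c, hc⟩ := hR
    obtain ⟨z₀, hz₀⟩ := hne
    refine ⟨a₀, mem_ball_self hε, 1, one_pos, hqa₀, fun z _ hz => ?_⟩
    exact absurd (by rw [hc z₀, ← hc z, hz]) hz₀
  | succ d ih =>
    have hRfull : IsPolyDeg (d + 1) R := hR
    obtain ⟨hdiff, h1, hI⟩ := hR
    have hRc : Continuous R := hdiff.continuous
    have hR' : IsPolyDeg d (fun z => fderiv ℝ R z w) := by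
      rcases hw with h | h
      · rw [h]; exact h1
      · rw [h]; exact hI
    by_cases hne' : ∃ z, fderiv ℝ R z w ≠ 0
    · have hdist : dist a₀ p < r := mem_ball.1 ha₀
      have hε₁ : 0 < min (ε / 2) (r - dist a₀ p) := lt_min (by linarith) (by linarith)
      obtain ⟨a, ha, δ, hδ, hqa, H⟩ := ih _ hR' hne' a₀ ha₀ hqa₀ _ hε₁
      have ha1 : dist a a₀ < ε / 2 := lt_of_lt_of_le (mem_ball.1 ha) (min_le_left _ _)
      have ha2 : dist a a₀ < r - dist a₀ p := lt_of_lt_of_le (mem_ball.1 ha) (min_le_right _ _)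
      have hap : a ∈ ball p r := by
        rw [mem_ball]
        have := dist_triangle a a₀ p
        linarith
      have hδ₁ : 0 < min δ (ε / 2) := lt_min hδ (by linarith)
      by_cases hex : ∃ a' ∈ ball a (min δ (ε / 2)), q a' = 0 ∧ R a' ≠ 0
      · obtain ⟨a', ha', hqa', hRa'⟩ := hex
        obtain ⟨δ', hδ', hb⟩ := exists_ball_ne_zero hRc hRa'
        refine ⟨a', ?_, δ', hδ', hqa', fun z hz hRz => absurd hRz (hb z hz)⟩
        rw [mem_ball]
        have h3 : dist a' a < ε / 2 := lt_of_lt_of_le (mem_ball.1 ha') (min_le_right _ _)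
        have := dist_triangle a' a a₀
        linarith
      · have hRz : ∀ z ∈ ball a (min δ (ε / 2)), q z = 0 → R z = 0 := by
          intro z hz hqz
          by_contra hcon
          exact hex ⟨z, hz, hqz, hcon⟩
        obtain ⟨η, hη, hroll⟩ := rolle_dir hw1 hm hqc hmono hdiff hap hqa hδ₁ hRz
        refine ⟨a, ?_, η, hη, hqa, fun z hz hRz0 => ?_⟩
        · rw [mem_ball]; linarith
        · by_contra hq
          obtain ⟨ζ, hζ, hqζ, hdζ⟩ := hroll z hz hRz0 hq
          exact hqζ (H ζ (ball_subset_ball (min_le_left _ _) hζ) hdζ)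
    · have h0 : ∀ z, fderiv ℝ R z w = 0 := by
        intro z
        by_contra hcon
        exact hne' ⟨z, hcon⟩
      by_cases hex : ∃ a ∈ ball a₀ ε, q a = 0 ∧ R a ≠ 0
      · obtain ⟨a, ha, hqa, hRa⟩ := hex
        obtain ⟨δ', hδ', hb⟩ := exists_ball_ne_zero hRc hRa
        exact ⟨a, ha, δ', hδ', hqa, fun z hz hRz => absurd hRz (hb z hz)⟩
      · exfalso
        obtain ⟨η, hη, hfoot⟩ := foot hw1 hm hqc hmono ha₀ hqa₀ hε
        have hzero : ∀ z ∈ ball a₀ η, R z = 0 := by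
          intro z hz
          obtain ⟨τ, hq, hmem, -⟩ := hfoot z hz
          rw [← const_along hdiff h0 z τ]
          by_contra hcon
          exact hex ⟨_, hmem, hq, hcon⟩
        obtain ⟨z₀, hz₀⟩ := hne
        exact hz₀ (hRfull.eq_zero_of_ball hη hzero z₀)

end Vale.Agent.Lib.P274.SA
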