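import Mathlib
import Vale.Agent.Lib.P274.SA.Defs
import Vale.Agent.Lib.P274.SA.PolyMul
import Vale.Agent.Lib.P274.SA.PolySmooth
import Vale.Agent.Lib.P274.SA.Frontier
import Vale.Agent.Lib.P274.SA.Reg
import Vale.Agent.Lib.P274.SA.Chart
import Vale.Agent.Lib.P274.SA.Slit
import Vale.Agent.Lib.P274.SA.Dich
import Vale.Agent.Lib.P274.SA.Discs

/-!
# P274, planar semialgebraic case: existence of a pair of touching discs
-/

namespace Vale.Agent.Lib.P274.SA

open Set Metric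

theorem exists_touching {U : Set ℂ} (hUo : IsOpen U) (hne : U.Nonempty)
    (hb : Bornology.IsBounded U) {P : MvPolynomial (Fin 2) ℝ} (hP : P ≠ 0)
    (hF : frontier U ⊆ {z | ev P z = 0}) :
    ∃ (c c' : ℂ) (ρ ρ' : ℝ), 0 < ρ ∧ 0 < ρ' ∧ dist c c' = ρ + ρ' ∧ ball c ρ ⊆ U ∧
      Disjoint U (closedBall c' ρ') := by
  -- the frontier of the closure is nonempty
  have hCne : (closure U).Nonempty := hne.closure
  have hCuniv : closure U ≠ univ := by
    intro h
    have hb' : Bornology.IsBounded (closure U) := hb.closure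
    rw [h] at hb'
    exact NormedSpace.unbounded_univ ℝ ℂ hb'
  obtain ⟨p₀, hp₀⟩ : (frontier (closure U)).Nonempty := nonempty_frontier_iff.2 ⟨hCne, hCuniv⟩
  have hEF : frontier (closure U) ⊆ frontier U := frontier_closure_subset
  obtain ⟨d, hd⟩ := ev_isPolyDeg P
  obtain ⟨e, q, p, r', w, hq, hpE, hr', hw, hqE, hpos⟩ :=
    exists_regular (frontier (closure U)) d (ev P) hd p₀ hp₀ 1 one_pos
      (fun z hz _ => hF (hEF hz)) (ev_ne_zero hP)
  have hw1 : ‖w‖ = 1 := by
    rcases hw with rfl | rfl <;> simp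
  have hq2 : ContDiff ℝ 2 q := hq.contDiff_two
  have hqc : Continuous q := hq2.continuous
  obtain ⟨r, m, hr, hrr', hm, hder, hmono⟩ := chart_of_deriv_pos hq2 hpos hr'
  have hqp : q p = 0 := hqE p hpE (mem_ball_self hr')
  have hE : ∀ z ∈ frontier (closure U), z ∈ ball p r → q z = 0 := fun z hz hzb =>
    hqE z hz (ball_subset_ball hrr' hzb)
  obtain ⟨r₁, hr₁, hr₁r, hdich⟩ := dichotomy hw1 hm hr hqc hmono hqp hUo hpE hE
  obtain ⟨a, ha, δ, hδ, hqa, hslit⟩ := slit hw hm hqc hmono d (ev P) hd (ev_ne_zero hP) p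
    (mem_ball_self hr) hqp r₁ hr₁
  have hda : 0 < r₁ - dist a p := sub_pos.2 (mem_ball.1 ha)
  have hδ' : 0 < min δ (r₁ - dist a p) := lt_min hδ hda
  have hsub1 : ball a (min δ (r₁ - dist a p)) ⊆ ball p r₁ := by
    intro z hz
    have h1 : dist z a < r₁ - dist a p := lt_of_lt_of_le (mem_ball.1 hz) (min_le_right _ _)
    have h2 := dist_triangle z a p
    exact mem_ball.2 (by linarith)
  have hsub2 : ball a (min δ (r₁ - dist a p)) ⊆ ball a δ := ball_subset_ball (min_le_left _ _)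
  have hfd : fderiv ℝ q a ≠ 0 := by
    intro h0
    have := hder a (ball_subset_ball hr₁r ha)
    rw [h0] at this
    simp at this
    linarith
  obtain ⟨c₁, c₂, ρ, hρ, hdist, hc₁, hc₂⟩ := tangent_balls hq2 hqa hfd hδ'
  -- a point of `closure U` off the zero set of `q`, close to `a`, lies in `U`
  have hinU : ∀ z ∈ ball a (min δ (r₁ - dist a p)), q z ≠ 0 → z ∈ closure U → z ∈ U := by
    intro z hz hqz hzC
    by_contra hzU
    have hzF : z ∈ frontier U := by
      rw [frontier, hUo.interior_eq]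
      exact ⟨hzC, hzU⟩
    exact hqz (hslit z (hsub2 hz) (hF hzF))
  have hclosed : ∀ c : ℂ, (∀ z ∈ ball c ρ, z ∉ closure U) → Disjoint U (closedBall c ρ) := by
    intro c hc
    rw [Set.disjoint_left]
    intro z hzU hzc
    rw [← closure_ball c hρ.ne'] at hzc
    obtain ⟨y, hyU, hyb⟩ := mem_closure_iff.1 hzc U hUo hzU
    exact hc y hyb (subset_closure hyU)
  rcases hdich with ⟨hplus, hminus⟩ | ⟨hplus, hminus⟩
  · refine ⟨c₁, c₂, ρ, ρ, hρ, hρ, hdist, ?_, ?_⟩
    · intro z hz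
      obtain ⟨h1, h2⟩ := hc₁ z hz
      exact hinU z h2 h1.ne' (hplus z (hsub1 h2) h1)
    · refine hclosed c₂ ?_
      intro z hz
      obtain ⟨h1, h2⟩ := hc₂ z hz
      exact hminus z (hsub1 h2) h1
  · refine ⟨c₂, c₁, ρ, ρ, hρ, hρ, by rw [dist_comm]; exact hdist, ?_, ?_⟩
    · intro z hz
      obtain ⟨h1, h2⟩ := hc₂ z hz
      exact hinU z h2 h1.ne (hminus z (hsub1 h2) h1)
    · refine hclosed c₁ ?_
      intro z hz
      obtain ⟨h1, h2⟩ := hc₁ z hz
      exact hplus z (hsub1 h2) h1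

end Vale.Agent.Lib.P274.SA
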