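import Mathlib

/-!
# LEAF Q: from a group action with compact orbit space to a cocompact family of self-maps
Take `Γ = {γ | ∃ g : G, DifferentiableOn ℂ γ U ∧ ∀ z : U, γ z = g • z}`.
* `Γ` consists of holomorphic self-maps of `U`, and the map attached to `g⁻¹` inverts the one of `g`.
* Each `g` acts continuously on the subtype `U` (`DifferentiableOn.continuousOn`,
  `continuousOn_iff_continuous_restrict`, `Continuous.subtype_mk` / `Topology.IsInducing`), which gives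
  a local instance `ContinuousConstSMul G U`; then the quotient map
  `π : U → Quotient (MulAction.orbitRel G U)` is open (`MulAction.isOpenMap_quotient_mk'_mul`).
* For `x : U` choose `r x > 0` with `closedBall x (r x) ⊆ U` (`Metric.nhds_basis_closedBall.mem_iff`), the sets
  `π '' {y : U | (y : ℂ) ∈ ball x (r x)}` are open and cover the compact quotient; take a finite
  subcover (`isCompact_univ.elim_finite_subcover`) indexed by a finset `t`, and
  `K = ⋃ x ∈ t, closedBall x (r x)` (`Finset.isCompact_biUnion`, `isCompact_closedBall`).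
* If `π y = π z` then `Quotient.exact` gives `y ∈ MulAction.orbit G z` (or the symmetric statement), i.e.
  `g • z = y`, hence `g⁻¹ • y = z`.
-/

namespace Vale.Agent.Lib.P274.SA

open Set Metric

theorem exists_family_of_action {U : Set ℂ} (hUo : IsOpen U) (G : Type*) [Group G] [MulAction G U]
    (hhol : ∀ g : G, ∃ γ : ℂ → ℂ, DifferentiableOn ℂ γ U ∧ ∀ z : U, γ (z : ℂ) = ((g • z : U) : ℂ))
    (hcpt : CompactSpace (Quotient (MulAction.orbitRel G U))) :
    ∃ (Γ : Set (ℂ → ℂ)) (K : Set ℂ), (∀ γ ∈ Γ, DifferentiableOn ℂ γ U) ∧ (∀ γ ∈ Γ, MapsTo γ U U) ∧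
      (∀ γ ∈ Γ, ∃ γ' ∈ Γ, (∀ z ∈ U, γ' (γ z) = z) ∧ (∀ z ∈ U, γ (γ' z) = z)) ∧
      IsCompact K ∧ K ⊆ U ∧ (∀ z ∈ U, ∃ γ ∈ Γ, ∃ k ∈ K, γ k = z) := by
  classical
  -- continuity of the action
  have hc : ∀ g : G, Continuous (fun z : U => g • z) := by
    intro g
    obtain ⟨γ, hγ, hg⟩ := hhol g
    have h1 : Continuous (fun z : U => γ (z : ℂ)) :=
      continuousOn_iff_continuous_domRestrict.mp hγ.continuousOn
    have h2 : Continuous (fun z : U => ((g • z : U) : ℂ)) := by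
      have e : (fun z : U => ((g • z : U) : ℂ)) = fun z : U => γ (z : ℂ) := funext fun z => (hg z).symm
      rw [e]; exact h1
    exact Topology.IsInducing.subtypeVal.continuous_iff.mpr h2
  have : ContinuousConstSMul G U := ⟨hc⟩
  let π : U → Quotient (MulAction.orbitRel G U) := Quotient.mk (MulAction.orbitRel G U)
  have hπo : IsOpenMap π := isOpenMap_quotient_mk'_mul
  -- radii
  have hr : ∀ x : U, ∃ r : ℝ, 0 < r ∧ closedBall (x : ℂ) r ⊆ U := by
    intro x
    exact Metric.nhds_basis_closedBall.mem_iff.mp (hUo.mem_nhds x.2)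
  choose r hr0 hrU using hr
  let W : U → Set (Quotient (MulAction.orbitRel G U)) :=
    fun x => π '' {y : U | (y : ℂ) ∈ ball (x : ℂ) (r x)}
  have hWo : ∀ x, IsOpen (W x) := by
    intro x
    apply hπo
    exact isOpen_ball.preimage continuous_subtype_val
  have hWc : (univ : Set (Quotient (MulAction.orbitRel G U))) ⊆ ⋃ x, W x := by
    intro q _
    obtain ⟨x, rfl⟩ := Quotient.exists_rep q
    exact mem_iUnion.mpr ⟨x, x, mem_ball_self (hr0 x), rfl⟩
  obtain ⟨t, ht⟩ := isCompact_univ.elim_finite_subcover W hWo hWc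
  refine ⟨{γ | ∃ g : G, DifferentiableOn ℂ γ U ∧ ∀ z : U, γ (z : ℂ) = ((g • z : U) : ℂ)},
    ⋃ x ∈ t, closedBall (x : ℂ) (r x), ?_, ?_, ?_, ?_, ?_, ?_⟩
  · rintro γ ⟨g, hγ, -⟩
    exact hγ
  · rintro γ ⟨g, -, hg⟩ z hz
    have := hg ⟨z, hz⟩
    simp only at this
    rw [this]
    exact (g • (⟨z, hz⟩ : U)).2
  · rintro γ ⟨g, hγ, hg⟩
    obtain ⟨γ', hγ', hg'⟩ := hhol g⁻¹
    refine ⟨γ', ⟨g⁻¹, hγ', hg'⟩, ?_, ?_⟩
    · intro z hz
      have e1 : γ z = ((g • (⟨z, hz⟩ : U) : U) : ℂ) := hg ⟨z, hz⟩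
      rw [e1, hg' (g • (⟨z, hz⟩ : U)), inv_smul_smul]
    · intro z hz
      have e1 : γ' z = ((g⁻¹ • (⟨z, hz⟩ : U) : U) : ℂ) := hg' ⟨z, hz⟩
      rw [e1, hg (g⁻¹ • (⟨z, hz⟩ : U)), smul_inv_smul]
  · exact t.isCompact_biUnion (fun x _ => isCompact_closedBall _ _)
  · intro z hz
    simp only [mem_iUnion] at hz
    obtain ⟨x, -, hx⟩ := hz
    exact hrU x hx
  · intro z hz
    have hq : π ⟨z, hz⟩ ∈ ⋃ x ∈ t, W x := ht (mem_univ _)
    simp only [mem_iUnion] at hq
    obtain ⟨x, hxt, y, hy, hyz⟩ := hq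
    have hrel : (MulAction.orbitRel G U) y ⟨z, hz⟩ := Quotient.exact hyz
    rw [MulAction.orbitRel_apply] at hrel
    obtain ⟨g, hg⟩ := hrel
    -- `g • z = y`
    obtain ⟨γ, hγ, hγg⟩ := hhol g⁻¹
    refine ⟨γ, ⟨g⁻¹, hγ, hγg⟩, (y : ℂ), ?_, ?_⟩
    · simp only [mem_iUnion]
      exact ⟨x, hxt, ball_subset_closedBall hy⟩
    · rw [hγg y, ← hg]
      simp

end Vale.Agent.Lib.P274.SA
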